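import Mathlib
import Vale.Agent.P333.Model
import Vale.Agent.P333.NPDefs
import Vale.Agent.P333.NP.Main
import Vale.Agent.P333.Y.Final

/-!
P333: a polynomial time approximation algorithm of ratio `2` for the shortest common superstring
problem; NP-hardness of the approximation with every ratio below `131/130`. The PCP theorem,
parallel repetition, Hastad's theorem and the Cook-Levin theorem are proved in the imported files.
-/

namespace Vale.Agent.Results.P333.Approx2NP131

open Vale.Agent.P333

theorem result :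
    HasApprox 2 ∧
    (∀ ρ : ℝ, 2 ≤ ρ → HasApprox ρ) ∧
    (∀ ρ : ℝ, ρ < 131 / 130 → HasApprox ρ → classNP = classP) ∧
    bestRatio ≤ 2 ∧
    (classNP ≠ classP → 131 / 130 ≤ bestRatio) ∧
    (∀ ρ : ℝ, ρ < 131 / 130 → ∀ L ∈ classNP,
      ∃ (f : List Bool → List (List ℕ)) (k : List Bool → ℕ),
        PolyTime (fun w : List Bool => w) familyW f ∧
        PolyTime (fun w : List Bool => w) Nat.bits k ∧
        ∀ x, (x ∈ L → opt (f x) ≤ k x) ∧ (x ∉ L → ρ * k x < opt (f x))) :=
  ⟨Y.hasApprox_two, fun _ hr => G.hasApprox_mono hr Y.hasApprox_two, NP.np_eq_p,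
    NP.bestRatio_le Y.hasApprox_two,
    fun hne => NP.le_bestRatio ⟨_, Y.hasApprox_two⟩
      fun ρ hρ hr => hne (NP.np_eq_p ρ hρ hr),
    NP.np_hard⟩

end Vale.Agent.Results.P333.Approx2NP131
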