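import Vale.Agent.P333.Model
import Vale.Agent.P333.H705.GrDefs
import Vale.Agent.P333.H476.FinK

/-!
P333: the greedy conjecture of Tarhio and Ukkonen is false, for every tie-breaking rule.
-/

namespace Vale.Agent.Results.P333.GreedyConjectureFalse

open Vale.Agent.P333

theorem result : ∀ n : ℕ, ∃ S : List (List ℕ), n ≤ opt S ∧ Greedy.Reduced S S ∧
    (∃ t, Greedy.Output S t) ∧
    ∀ t, Greedy.Output S t → 2 * opt S + n < t.length ∧ 2107 * opt S < 1000 * t.length :=
  H476.every_output

end Vale.Agent.Results.P333.GreedyConjectureFalse
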