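import Vale.Agent.P333.Model
import Vale.Agent.P333.H705.GrDefs
import Vale.Agent.P333.H705.GrG

/-!
P333: the greedy algorithm for the shortest common superstring problem is a 3-approximation, for
every way of breaking the ties.
-/

namespace Vale.Agent.Results.P333.GreedyThree

open Vale.Agent.P333

theorem result :
    (∀ (S : List (List ℕ)) (t : List ℕ), Greedy.Output S t →
      IsSuperstring S t ∧ t.length ≤ 3 * opt S) ∧
    (∀ S : List (List ℕ), S ≠ [] → ∃ t : List ℕ, Greedy.Output S t) :=
  ⟨fun _ _ h => H705.Gr.output_le h, fun _ h => H705.Gr.exists_output h⟩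

end Vale.Agent.Results.P333.GreedyThree
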